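import Vale.Agent.P327.Main

open Vale.Agent.P327 in
/-- The Turing degrees (of subsets of `ℕ`) are rigid: every order automorphism is the identity. -/
theorem Vale.Agent.Results.P327.Rigidity.result
    (π : Vale.Agent.P327.SetDegree ≃o Vale.Agent.P327.SetDegree)
    (a : Vale.Agent.P327.SetDegree) : π a = a := by
  obtain ⟨x, rfl⟩ := deg_surjective a
  obtain ⟨y, hy⟩ := deg_surjective (π (deg x))
  have h := auto_of_orderIso π
  rw [← hy]
  exact le_antisymm (deg_le_deg.2 (auto_le_self h.symm hy.symm))
    (deg_le_deg.2 (auto_le_self h hy.symm))
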